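import Vale.Agent.P159.Bdl.B9

/-!
NearCritical (P159, hand-in 4), second version: the literal interfaces.
-/

namespace Vale.Agent.P159.NC

open scoped BigOperators

/-- The recursion for the vortex ratio with constants uniform in the cell size `l`:
no flatness is needed for the crude form, flatness over the window for the sharp form. -/
def StepU : Prop := ∀ B t0 : ℝ, 0 < B → 0 < t0 → ∃ (C1 : ℝ) (K : ℕ), 0 ≤ C1 ∧ 1 ≤ K ∧
  ∀ M : ℕ, 1 ≤ M → ∃ (δ0 : ℝ) (m0 : ℕ), 0 < δ0 ∧ 1 ≤ m0 ∧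
    ∀ b : ℝ, 0 < b → b ≤ B → ∀ l m : ℕ, 1 ≤ l → m0 ≤ m → t0 ≤ stiff l b →
      Real.exp (-(Real.pi * stiff l b * Real.log (UJ.NN K M)) - C1) * UJ.yy b (l * m) ≤
        UJ.yy b (l * m * UJ.NN K M) ∧
      (stiff l b - stiff (l * m * UJ.NN K M) b ≤ δ0 →
        (M : ℝ) ^ 2 / 2 *
          (Real.exp (-(Real.pi * stiff l b * Real.log (UJ.NN K M)) - C1) *
            UJ.yy b (l * m)) ≤ UJ.yy b (l * m * UJ.NN K M))

/-- The sum rule for the stiffness over the scales. -/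
def SumRule : Prop := ∀ B t0 ε : ℝ, 0 < B → 0 < t0 → 0 < ε → ∃ (N : ℕ) (K : ℝ),
  2 ≤ N ∧ 0 ≤ K ∧ ∀ b : ℝ, 0 < b → b ≤ B → ∀ l : ℕ, 1 ≤ l → ∀ J : ℕ,
    (∀ j < J, t0 ≤ stiff (l * N ^ j) b) →
      ∑ j ∈ Finset.range J, (2 - Real.pi * stiff (l * N ^ j) b) * Real.log N ≤
        ε * (J * Real.log N) + K * (1 + Real.log l)

/-- The end game with an exponent close to one. -/
def EndU : Prop := ∀ b0 B ε : ℝ, 0 < b0 → 0 < B → 0 < ε → ∃ (t0 A : ℝ), 0 < t0 ∧ 1 ≤ A ∧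
  ∀ b : ℝ, b0 ≤ b → b ≤ B → ∀ l : ℕ, 1 ≤ l → stiff l b ≤ t0 →
    0 < mass b ∧ corrLength b ≤ A * (l : ℝ) ^ (1 + ε)

/-- The stiffness below the critical point, at all scales up to the correlation length. -/
def SharpNC : Prop := ∀ ε : ℝ, 0 < ε → ∃ K : ℝ, 0 < K ∧ ∀ b : ℝ, 0 < b → b < bCrit →
  ∀ L : ℕ, 1 ≤ L → (L : ℝ) ≤ corrLength b →
    (2 / Real.pi - stiff L b) * (Real.log (corrLength b) - Real.log L) ≤
      (helicity bCrit - 2 / Real.pi) * Real.log L + ε * Real.log (corrLength b) + K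

end Vale.Agent.P159.NC
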