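import Vale.Agent.P159.H170.Final
import Vale.Agent.P159.H177.Exp
import Vale.Agent.P159.T1.NC.Props

set_option linter.all false

/-!
The stiffness below the critical point at all scales up to the correlation length: from the sum
rule and the end game.
-/

open Filter Topology
open scoped BigOperators

namespace Vale.Agent.P159.NC

open Vale.Agent.P159

theorem stiff_anti_pow {b : ℝ} (hb : 0 ≤ b) {l N : ℕ} (hl : 1 ≤ l) (hN : 1 ≤ N) {i j : ℕ}
    (h : i ≤ j) : stiff (l * N ^ j) b ≤ stiff (l * N ^ i) b := by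
  obtain ⟨k, rfl⟩ := Nat.exists_eq_add_of_le h
  have e : l * N ^ (i + k) = l * N ^ i * N ^ k := by ring
  rw [e]
  exact UJ.stiff_mono hb (Nat.mul_pos hl (Nat.pow_pos hN)) (Nat.pow_pos hN)

theorem sum_split {b : ℝ} (hb : 0 ≤ b) {l N : ℕ} (hl : 1 ≤ l) (hN : 1 ≤ N) {n : ℝ} (hn : 0 ≤ n)
    {i J : ℕ} (hij : i ≤ J) :
    (i : ℝ) * n * (2 - Real.pi * stiff (l * N ^ 0) b) +
      ((J : ℝ) - i) * n * (2 - Real.pi * stiff (l * N ^ i) b) ≤
    ∑ j ∈ Finset.range J, (2 - Real.pi * stiff (l * N ^ j) b) * n := by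
  have hpi := Real.pi_pos
  rw [← Finset.sum_range_add_sum_Ico _ hij]
  refine add_le_add ?_ ?_
  · have h1 := Finset.card_nsmul_le_sum (Finset.range i)
      (fun j => (2 - Real.pi * stiff (l * N ^ j) b) * n)
      ((2 - Real.pi * stiff (l * N ^ 0) b) * n) (fun j _ => by
        refine mul_le_mul_of_nonneg_right ?_ hn
        have := mul_le_mul_of_nonneg_left (stiff_anti_pow hb hl hN (Nat.zero_le j)) hpi.le
        linarith)
    rw [Finset.card_range, nsmul_eq_mul] at h1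
    refine le_trans (le_of_eq ?_) h1
    ring
  · have h1 := Finset.card_nsmul_le_sum (Finset.Ico i J)
      (fun j => (2 - Real.pi * stiff (l * N ^ j) b) * n)
      ((2 - Real.pi * stiff (l * N ^ i) b) * n) (fun j hj => by
        refine mul_le_mul_of_nonneg_right ?_ hn
        have := mul_le_mul_of_nonneg_left
          (stiff_anti_pow hb hl hN (Finset.mem_Ico.1 hj).1) hpi.le
        linarith)
    rw [Nat.card_Ico, nsmul_eq_mul, Nat.cast_sub hij] at h1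
    refine le_trans (le_of_eq ?_) h1
    ring

/-- the arithmetic of the main case -/
theorem arith_case {lx ll i J n S s0 si Yc q e C1 C2 K0 sum : ℝ} (hq : 0 < q)
    (hlx : 0 ≤ lx) (hll : 0 ≤ ll) (hle : ll ≤ lx) (hi : i * n ≤ ll + C2) (hi0 : 0 ≤ i * n)
    (hJ : (1 - e) * lx - C1 ≤ J * n) (hJ' : J * n ≤ lx) (he : 0 < e) (hC1 : 0 ≤ C1)
    (hC2 : 0 ≤ C2) (hK0 : 0 ≤ K0) (hY : 2 ≤ q * Yc) (hs0 : s0 ≤ Yc + e) (hsi : si ≤ S + e)
    (hsum1 : sum ≤ e * (J * n) + K0) (hsum2 : i * n * (2 - q * s0) + (J - i) * n * (2 - q * si) ≤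
      sum) (hiJ : 0 ≤ (J - i) * n) (hS0 : 0 ≤ S) :
    (2 - q * S) * (lx - ll) ≤ (q * Yc - 2) * ll + (q * e + 3 * e) * lx +
      ((q * Yc - 2) * C2 + K0 + 2 * (C1 + C2)) := by
  have hqe : 0 < q * e := mul_pos hq he
  have hA : 0 ≤ (q * Yc - 2) * ll := mul_nonneg (by linarith) hll
  have hB : 0 ≤ (q * e + 3 * e) * lx := mul_nonneg (by positivity) hlx
  have hC : 0 ≤ (q * Yc - 2) * C2 := mul_nonneg (by linarith) hC2
  rcases le_or_gt (2 - q * S) 0 with hneg | hpos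
  · have h1 : (2 - q * S) * (lx - ll) ≤ 0 :=
      mul_nonpos_of_nonpos_of_nonneg hneg (by linarith)
    linarith
  · have hle2 : 2 - q * S ≤ 2 := by
      have : 0 ≤ q * S := mul_nonneg hq.le hS0
      linarith
    have h1 : lx - ll ≤ (J - i) * n + (e * lx + C1 + C2) := by
      have e1 : (J - i) * n = J * n - i * n := by ring
      rw [e1]
      linarith
    have h2 : (2 - q * S) * (lx - ll) ≤ (2 - q * S) * ((J - i) * n + (e * lx + C1 + C2)) :=
      mul_le_mul_of_nonneg_left h1 hpos.le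
    have h3 : (2 - q * S) * (e * lx + C1 + C2) ≤ 2 * (e * lx + C1 + C2) :=
      mul_le_mul_of_nonneg_right hle2 (by positivity)
    have h4 : (2 - q * S) * ((J - i) * n) ≤ (2 - q * si + q * e) * ((J - i) * n) := by
      refine mul_le_mul_of_nonneg_right ?_ hiJ
      have := mul_le_mul_of_nonneg_left hsi hq.le
      linarith
    have h5 : i * n * (q * s0 - 2) ≤ i * n * (q * Yc - 2 + q * e) := by
      refine mul_le_mul_of_nonneg_left ?_ hi0
      have := mul_le_mul_of_nonneg_left hs0 hq.le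
      linarith
    have h6 : (q * Yc - 2) * (i * n) ≤ (q * Yc - 2) * (ll + C2) :=
      mul_le_mul_of_nonneg_left hi (by linarith)
    have h7 : e * (J * n) ≤ e * lx := mul_le_mul_of_nonneg_left hJ' he.le
    have h8 : q * e * (J * n) ≤ q * e * lx := mul_le_mul_of_nonneg_left hJ' hqe.le
    nlinarith [h2, h3, h4, h5, h6, h7, h8, hsum1, hsum2]

/-- the arithmetic of the case of a scale close to the correlation length -/
theorem arith_end {lx ll i J n S Yc q e C1 C2 K0 : ℝ} (hq : 0 < q)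
    (hlx : 0 ≤ lx) (hll : 0 ≤ ll) (hle : ll ≤ lx) (hi : i * n ≤ ll + C2)
    (hJ : (1 - e) * lx - C1 ≤ J * n) (he : 0 < e) (hC1 : 0 ≤ C1)
    (hC2 : 0 ≤ C2) (hK0 : 0 ≤ K0) (hY : 2 ≤ q * Yc) (hiJ : (J - i) * n ≤ 0) (hS0 : 0 ≤ S) :
    (2 - q * S) * (lx - ll) ≤ (q * Yc - 2) * ll + (q * e + 3 * e) * lx +
      ((q * Yc - 2) * C2 + K0 + 2 * (C1 + C2)) := by
  have hqe : 0 < q * e := mul_pos hq he
  have hA : 0 ≤ (q * Yc - 2) * ll := mul_nonneg (by linarith) hll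
  have hB : 0 ≤ (q * e + 3 * e) * lx := mul_nonneg (by positivity) hlx
  have hC : 0 ≤ (q * Yc - 2) * C2 := mul_nonneg (by linarith) hC2
  rcases le_or_gt (2 - q * S) 0 with hneg | hpos
  · have h1 : (2 - q * S) * (lx - ll) ≤ 0 :=
      mul_nonpos_of_nonpos_of_nonneg hneg (by linarith)
    linarith
  · have hle2 : 2 - q * S ≤ 2 := by
      have : 0 ≤ q * S := mul_nonneg hq.le hS0
      linarith
    have h1 : lx - ll ≤ e * lx + C1 + C2 := by
      have e1 : (J - i) * n = J * n - i * n := by ring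
      rw [e1] at hiJ
      linarith
    have h2 : (2 - q * S) * (lx - ll) ≤ 2 * (e * lx + C1 + C2) :=
      mul_le_mul hle2 h1 (by linarith) (by norm_num)
    have h3 : 0 ≤ q * e * lx := by positivity
    have h4 : 0 ≤ e * lx := by positivity
    linarith

/-- lower bound of the last scale by the correlation length -/
theorem last_scale {lx e a T : ℝ} (hlx : 0 ≤ lx) (he : 0 < e) (ha : 0 ≤ a) (hT : 0 ≤ T)
    (h : lx ≤ a + (1 + e) * T) : (1 - e) * lx ≤ a + T := by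
  rcases le_or_gt 0 (1 - e) with h1 | h1
  · have h2 := mul_le_mul_of_nonneg_left h h1
    have h3 : 0 ≤ e * a := by positivity
    have h4 : 0 ≤ e ^ 2 * T := by positivity
    nlinarith
  · have : (1 - e) * lx ≤ 0 := mul_nonpos_of_nonpos_of_nonneg h1.le hlx
    linarith

theorem exists_last {b : ℝ} (hb : 0 < b) (hm : 0 < mass b) {l N : ℕ} (hl : 1 ≤ l) (hN : 2 ≤ N)
    {t0 : ℝ} (ht0 : 0 < t0) : ∃ J : ℕ, stiff (l * N ^ J) b < t0 := by
  obtain ⟨C, hC⟩ := stiff_le_of_mass_pos hb hm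
  obtain ⟨J, hJ⟩ := exists_nat_gt (C / t0)
  refine ⟨J, ?_⟩
  have h1 : J < N ^ J := Nat.lt_pow_self (by omega)
  have h2 : J < l * N ^ J := lt_of_lt_of_le h1 (Nat.le_mul_of_pos_left _ hl)
  have hpos : 1 ≤ l * N ^ J := Nat.mul_pos hl (Nat.pow_pos (by omega))
  have h3 := hC _ hpos
  refine lt_of_le_of_lt h3 ?_
  have h4 : (0 : ℝ) < ((l * N ^ J : ℕ) : ℝ) := by exact_mod_cast hpos
  rw [div_lt_iff₀ h4]
  rw [div_lt_iff₀ ht0] at hJ
  have h5 : (J : ℝ) < ((l * N ^ J : ℕ) : ℝ) := by exact_mod_cast h2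
  nlinarith

/-- the choice of the last scale below the correlation length -/
theorem choose_Js {lx n e a l0 C1 : ℝ} (hn0 : 0 < n) (hlx0 : 0 ≤ lx) (he0 : 0 < e) (ha : 0 ≤ a)
    (hl0 : 0 ≤ l0) (hC1 : C1 = a + l0 + n) {J : ℕ} (hJ : lx ≤ a + (1 + e) * (l0 + J * n)) :
    ∃ Js : ℕ, Js ≤ J ∧ (Js : ℝ) * n ≤ lx ∧ (1 - e) * lx - C1 ≤ Js * n := by
  obtain ⟨m, hm'⟩ : ∃ m : ℕ, m = ⌊lx / n⌋₊ := ⟨_, rfl⟩
  have hm1 : (m : ℝ) * n ≤ lx := by
    rw [hm', ← le_div_iff₀ hn0]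
    exact Nat.floor_le (by positivity)
  have hm2 : lx - n ≤ m * n := by
    have h1 : lx / n < m + 1 := by rw [hm']; exact Nat.lt_floor_add_one _
    rw [div_lt_iff₀ hn0] at h1
    linarith
  refine ⟨min J m, min_le_left _ _, ?_, ?_⟩
  · have : ((min J m : ℕ) : ℝ) ≤ m := by exact_mod_cast min_le_right J m
    exact (mul_le_mul_of_nonneg_right this hn0.le).trans hm1
  · rcases le_total J m with h | h
    · rw [min_eq_left h]
      have hT : 0 ≤ l0 + J * n := by positivity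
      have := last_scale hlx0 he0 ha hT hJ
      rw [hC1]; linarith
    · rw [min_eq_right h]
      have h1 : 0 ≤ e * lx := by positivity
      rw [hC1]; linarith

theorem log_scale {l0 N : ℕ} {n : ℝ} (hl0 : 1 ≤ l0) (hN : 2 ≤ N) (hn : n = Real.log N) (j : ℕ) :
    Real.log ((l0 * N ^ j : ℕ) : ℝ) = Real.log l0 + j * n := by
  have h1 : (0 : ℝ) < l0 := by exact_mod_cast hl0
  have h2 : (0 : ℝ) < N := by exact_mod_cast (by omega : 0 < N)
  push_cast
  rw [Real.log_mul h1.ne' (by positivity), Real.log_pow, hn]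

/-- the scale of `L` -/
theorem choose_i {b e κ : ℝ} (hb : 0 ≤ b) (he0 : 0 < e) {l0 N L : ℕ} {n : ℝ} (hl0 : 1 ≤ l0)
    (hN : 2 ≤ N) (hn : n = Real.log N) (hL : 1 ≤ L) (hκ1 : 1 ≤ κ) (hκ : 2 * b ≤ e * κ) :
    ∃ i : ℕ, (i : ℝ) * n ≤ Real.log L + (Real.log κ + n) ∧
      stiff (l0 * N ^ i) b ≤ stiff L b + e := by
  have hn0 : 0 < n := by
    rw [hn]
    exact Real.log_pos (by exact_mod_cast (by omega : 1 < N))
  have hLR : (1 : ℝ) ≤ L := by exact_mod_cast hL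
  have hll00 : 0 ≤ Real.log L := Real.log_nonneg hLR
  have hlκ : 0 ≤ Real.log κ := Real.log_nonneg hκ1
  have hll0 : 0 ≤ Real.log l0 := Real.log_nonneg (by exact_mod_cast hl0)
  obtain ⟨i, hi⟩ : ∃ i : ℕ, i = ⌈(Real.log L + Real.log κ) / n⌉₊ := ⟨_, rfl⟩
  have hi2 : Real.log L + Real.log κ ≤ i * n := by
    rw [← div_le_iff₀ hn0, hi]
    exact Nat.le_ceil _
  have hpos : 1 ≤ l0 * N ^ i := Nat.mul_pos hl0 (Nat.pow_pos (by omega))
  have hp : (0 : ℝ) < ((l0 * N ^ i : ℕ) : ℝ) := by exact_mod_cast hpos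
  have hi3 : (L : ℝ) * κ ≤ ((l0 * N ^ i : ℕ) : ℝ) := by
    rw [← Real.log_le_log_iff (by positivity) hp, Real.log_mul (by positivity) (by linarith),
      log_scale hl0 hN hn]
    linarith
  have hLi : L ≤ l0 * N ^ i := by
    have : (L : ℝ) ≤ ((l0 * N ^ i : ℕ) : ℝ) := le_trans (by nlinarith) hi3
    exact_mod_cast this
  refine ⟨i, ?_, ?_⟩
  · have h1 : (i : ℝ) < (Real.log L + Real.log κ) / n + 1 := by
      rw [hi]; exact Nat.ceil_lt_add_one (by positivity)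
    have h2 : (i : ℝ) * n ≤ ((Real.log L + Real.log κ) / n + 1) * n :=
      mul_le_mul_of_nonneg_right h1.le hn0.le
    rw [add_mul, div_mul_cancel₀ _ hn0.ne', one_mul] at h2
    linarith
  · have h1 := H177.stiff_le_rate hb hL hLi
    refine h1.trans (add_le_add le_rfl ?_)
    rw [div_le_iff₀ hp]
    calc 2 * b * L ≤ e * κ * L := mul_le_mul_of_nonneg_right hκ (by positivity)
      _ = e * (L * κ) := by ring
      _ ≤ e * ((l0 * N ^ i : ℕ) : ℝ) := mul_le_mul_of_nonneg_left hi3 he0.le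

/-- the main case -/
theorem key_case {b e t0 A K1 C1 C2 Yc lx ll n : ℝ} {l0 N L : ℕ} (hb : 0 < b)
    (hm : 0 < mass b) (he0 : 0 < e) (ht0 : 0 < t0) (hl0 : 1 ≤ l0) (hN : 2 ≤ N)
    (hn : n = Real.log N) (hA : 1 ≤ A) (hL : 1 ≤ L) (hLx : (L : ℝ) ≤ corrLength b)
    (hlx : lx = Real.log (corrLength b)) (hll : ll = Real.log L) {κ : ℝ} (hκ1 : 1 ≤ κ)
    (hκ : 2 * b ≤ e * κ) (hC1 : C1 = Real.log A + Real.log l0 + n) (hC2 : C2 = Real.log κ + n)
    (hK1 : 0 ≤ K1) (hYc2 : 2 ≤ Real.pi * Yc) (hs0 : stiff (l0 * N ^ 0) b ≤ Yc + e)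
    (hend : ∀ l : ℕ, 1 ≤ l → stiff l b ≤ t0 → corrLength b ≤ A * (l : ℝ) ^ (1 + e))
    (hsum : ∀ J : ℕ, (∀ j < J, t0 ≤ stiff (l0 * N ^ j) b) →
      ∑ j ∈ Finset.range J, (2 - Real.pi * stiff (l0 * N ^ j) b) * n ≤
        e * (J * n) + K1) :
    (2 - Real.pi * stiff L b) * (lx - ll) ≤ (Real.pi * Yc - 2) * ll +
        (Real.pi * e + 3 * e) * lx + ((Real.pi * Yc - 2) * C2 + K1 + 2 * (C1 + C2)) := by
  classical
  have hpi := Real.pi_pos
  have hLR : (1 : ℝ) ≤ L := by exact_mod_cast hL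
  have hξ1 : 1 ≤ corrLength b := hLR.trans hLx
  have hξ0 : 0 < corrLength b := by linarith
  have hn0 : 0 < n := by
    rw [hn]
    exact Real.log_pos (by exact_mod_cast (by omega : 1 < N))
  have hlx0 : 0 ≤ lx := by rw [hlx]; exact Real.log_nonneg hξ1
  have hll00 : 0 ≤ ll := by rw [hll]; exact Real.log_nonneg hLR
  have hle : ll ≤ lx := by
    rw [hll, hlx]; exact Real.log_le_log (by linarith) hLx
  have hlκ : 0 ≤ Real.log κ := Real.log_nonneg hκ1
  have hlA : 0 ≤ Real.log A := Real.log_nonneg hA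
  have hll0 : 0 ≤ Real.log l0 := Real.log_nonneg (by exact_mod_cast hl0)
  have hC10 : 0 ≤ C1 := by rw [hC1]; positivity
  have hC20 : 0 ≤ C2 := by rw [hC2]; positivity
  have hS0 : 0 ≤ stiff L b := UJ.stiff_nonneg' hb.le hL
  have hJex := exists_last hb hm hl0 hN ht0
  obtain ⟨J, hJdef⟩ : ∃ J : ℕ, J = Nat.find hJex := ⟨_, rfl⟩
  have hJlt : stiff (l0 * N ^ J) b < t0 := by rw [hJdef]; exact Nat.find_spec hJex
  have hJmin : ∀ j < J, t0 ≤ stiff (l0 * N ^ j) b := by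
    intro j hj
    have := Nat.find_min hJex (by rw [← hJdef]; exact hj)
    exact not_lt.1 this
  have hposJ : 1 ≤ l0 * N ^ J := Nat.mul_pos hl0 (Nat.pow_pos (by omega))
  have hxi := hend (l0 * N ^ J) hposJ hJlt.le
  have hlxJ : lx ≤ Real.log A + (1 + e) * (Real.log l0 + J * n) := by
    have hp : (0 : ℝ) < ((l0 * N ^ J : ℕ) : ℝ) := by exact_mod_cast hposJ
    rw [hlx]
    refine (Real.log_le_log hξ0 hxi).trans (le_of_eq ?_)
    rw [Real.log_mul (by linarith) (Real.rpow_pos_of_pos hp _).ne', Real.log_rpow hp,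
      log_scale hl0 hN hn]
  obtain ⟨Js, hJsJ, hJs1, hJs2⟩ := choose_Js hn0 hlx0 he0 hlA hll0 hC1 hlxJ
  have hsumb := hsum Js fun j hj => hJmin j (lt_of_lt_of_le hj hJsJ)
  obtain ⟨i, hi1, hsi⟩ := choose_i hb.le he0 hl0 hN hn hL hκ1 hκ
  rw [← hll, ← hC2] at hi1
  rcases le_or_gt i Js with hij | hij
  · have hijR : (i : ℝ) ≤ Js := by exact_mod_cast hij
    exact arith_case (i := (i : ℝ)) (J := (Js : ℝ)) (n := n)
      (s0 := stiff (l0 * N ^ 0) b) (si := stiff (l0 * N ^ i) b)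
      (sum := ∑ j ∈ Finset.range Js, (2 - Real.pi * stiff (l0 * N ^ j) b) * n)
      hpi hlx0 hll00 hle hi1 (by positivity) hJs2 hJs1 he0 hC10 hC20 hK1 hYc2 hs0 hsi
      hsumb (sum_split hb.le hl0 (le_trans one_le_two hN) hn0.le hij)
      (mul_nonneg (by linarith) hn0.le) hS0
  · have hijR : (Js : ℝ) ≤ i := by exact_mod_cast hij.le
    exact arith_end (i := (i : ℝ)) (J := (Js : ℝ)) (n := n) hpi hlx0 hll00 hle hi1 hJs2 he0
      hC10 hC20 hK1 hYc2 (mul_nonpos_of_nonpos_of_nonneg (by linarith) hn0.le) hS0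

/-- division by `π` -/
theorem final_arith {Yc S lx ll ε e Km Ks : ℝ} (he : e = ε / 2) (hε : 0 < ε) (hlx0 : 0 ≤ lx)
    (hKm0 : 0 ≤ Km) (hKs0 : 0 ≤ Ks)
    (key : (2 - Real.pi * S) * (lx - ll) ≤ (Real.pi * Yc - 2) * ll +
        (Real.pi * e + 3 * e) * lx + Km) :
    (2 / Real.pi - S) * (lx - ll) ≤ (Yc - 2 / Real.pi) * ll + ε * lx + (Km + Ks + 1) := by
  have hpi := Real.pi_pos
  have hpi3 := Real.pi_gt_three
  have e1 : (2 / Real.pi - S) * (lx - ll) = (2 - Real.pi * S) * (lx - ll) / Real.pi := by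
    field_simp
  rw [e1, div_le_iff₀ hpi]
  have e2 : ((Yc - 2 / Real.pi) * ll + ε * lx + (Km + Ks + 1)) * Real.pi =
      (Real.pi * Yc - 2) * ll + Real.pi * (ε * lx) + Real.pi * (Km + Ks + 1) := by
    field_simp
  rw [e2]
  have e3 : (Real.pi * e + 3 * e) * lx ≤ Real.pi * (ε * lx) := by
    have h1 : Real.pi * e + 3 * e ≤ Real.pi * ε := by
      rw [he]; nlinarith
    calc (Real.pi * e + 3 * e) * lx ≤ Real.pi * ε * lx := mul_le_mul_of_nonneg_right h1 hlx0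
      _ = _ := by ring
  have e4 : Km ≤ Real.pi * (Km + Ks + 1) := by nlinarith
  linarith

theorem sharp_of (hS : SumRule) (hE : EndU) {b0 C0 : ℝ} (hb0 : 0 < b0)
    (hsm : ∀ b : ℝ, 0 < b → b ≤ b0 → corrLength b ≤ C0) : SharpNC := by
  intro ε hε
  have hpi := Real.pi_pos
  have hpi3 := Real.pi_gt_three
  have hBc := H170.bCrit_pos
  obtain ⟨e, he⟩ : ∃ e : ℝ, e = ε / 2 := ⟨_, rfl⟩
  have he0 : 0 < e := by rw [he]; positivity
  obtain ⟨t0, A, ht0, hA, hend⟩ := hE b0 bCrit e hb0 hBc he0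
  obtain ⟨N, K0, hN, hK0, hsum⟩ := hS bCrit t0 e hBc ht0 he0
  obtain ⟨l0, hl0, hl0'⟩ := H177.exists_stiff_lt (b := bCrit) (t := helicity bCrit + e)
    (by linarith)
  obtain ⟨Yc, hYc⟩ : ∃ Y, Y = helicity bCrit := ⟨_, rfl⟩
  have hYc2 : 2 ≤ Real.pi * Yc := by
    have := H170.hel_bCrit_ge
    rw [div_le_iff₀ hpi] at this
    rw [hYc]; linarith
  rw [← hYc] at hl0'
  have hN0 : (0 : ℝ) < N := by positivity
  have hN2 : (2 : ℝ) ≤ N := by exact_mod_cast hN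
  obtain ⟨n, hn⟩ : ∃ n : ℝ, n = Real.log N := ⟨_, rfl⟩
  have hn0 : 0 < n := by rw [hn]; exact Real.log_pos (by linarith)
  obtain ⟨κ, hκ⟩ : ∃ κ : ℝ, κ = 1 + 2 * bCrit / e := ⟨_, rfl⟩
  have hκ1 : 1 ≤ κ := by rw [hκ]; have : 0 ≤ 2 * bCrit / e := by positivity
                         linarith
  have hlκ : 0 ≤ Real.log κ := Real.log_nonneg hκ1
  have hlA : 0 ≤ Real.log A := Real.log_nonneg hA
  have hl0R : (1 : ℝ) ≤ l0 := by exact_mod_cast hl0
  have hll0 : 0 ≤ Real.log l0 := Real.log_nonneg hl0R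
  obtain ⟨C1, hC1⟩ : ∃ C1 : ℝ, C1 = Real.log A + Real.log l0 + n := ⟨_, rfl⟩
  obtain ⟨C2, hC2⟩ : ∃ C2 : ℝ, C2 = Real.log κ + n := ⟨_, rfl⟩
  obtain ⟨K1, hK1⟩ : ∃ K1 : ℝ, K1 = K0 * (1 + Real.log l0) := ⟨_, rfl⟩
  have hC10 : 0 ≤ C1 := by rw [hC1]; positivity
  have hC20 : 0 ≤ C2 := by rw [hC2]; positivity
  have hK10 : 0 ≤ K1 := by rw [hK1]; positivity
  obtain ⟨Km, hKm⟩ : ∃ Km : ℝ, Km = (Real.pi * Yc - 2) * C2 + K1 + 2 * (C1 + C2) := ⟨_, rfl⟩
  have hKm0 : 0 ≤ Km := by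
    rw [hKm]
    have : 0 ≤ (Real.pi * Yc - 2) * C2 := mul_nonneg (by linarith) hC20
    linarith
  obtain ⟨Ks, hKs⟩ : ∃ Ks : ℝ, Ks = Real.log (max C0 1) := ⟨_, rfl⟩
  have hKs0 : 0 ≤ Ks := by rw [hKs]; exact Real.log_nonneg (le_max_right _ _)
  refine ⟨Km + Ks + 1, by linarith, ?_⟩
  intro b hb hbc L hL hLx
  have hm : 0 < mass b := by
    refine lt_of_le_of_ne (XY.mass_nonneg hb) fun h => ?_
    have := (H170.mass_iff hb).1 h.symm
    linarith
  have hLR : (1 : ℝ) ≤ L := by exact_mod_cast hL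
  have hξ1 : 1 ≤ corrLength b := hLR.trans hLx
  have hξ0 : 0 < corrLength b := by linarith
  obtain ⟨lx, hlx⟩ : ∃ x : ℝ, x = Real.log (corrLength b) := ⟨_, rfl⟩
  obtain ⟨ll, hll⟩ : ∃ x : ℝ, x = Real.log L := ⟨_, rfl⟩
  have hlx0 : 0 ≤ lx := by rw [hlx]; exact Real.log_nonneg hξ1
  have hll00 : 0 ≤ ll := by rw [hll]; exact Real.log_nonneg hLR
  have hle : ll ≤ lx := by
    rw [hll, hlx]; exact Real.log_le_log (by linarith) hLx
  rw [← hlx, ← hll, ← hYc]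
  have hS0 : 0 ≤ stiff L b := UJ.stiff_nonneg' hb.le hL
  have hY0 : 0 ≤ (Yc - 2 / Real.pi) * ll := by
    refine mul_nonneg ?_ hll00
    rw [sub_nonneg, div_le_iff₀ hpi]
    linarith
  have hεx : 0 ≤ ε * lx := by positivity
  rcases le_or_gt b b0 with hbs | hbs
  · -- small inverse temperatures
    have h1 : lx ≤ Ks := by
      rw [hlx, hKs]
      exact Real.log_le_log hξ0 ((hsm b hb hbs).trans (le_max_left _ _))
    have h2 : (2 / Real.pi - stiff L b) * (lx - ll) ≤ 1 * (lx - ll) := by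
      refine mul_le_mul_of_nonneg_right ?_ (by linarith)
      have : 2 / Real.pi ≤ 1 := by rw [div_le_one hpi]; linarith
      linarith
    linarith
  · -- the main case
    have hs0 : stiff (l0 * N ^ 0) b ≤ Yc + e := by
      rw [pow_zero, mul_one]
      exact ((H873.stiff_monotoneOn hl0 (Set.mem_Ici.2 hb.le) (Set.mem_Ici.2 hBc.le)
        hbc.le).trans hl0'.le)
    have hκb : 2 * b ≤ e * κ := by
      rw [hκ, mul_add, mul_div_cancel₀ _ he0.ne']
      linarith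
    have key : (2 - Real.pi * stiff L b) * (lx - ll) ≤ (Real.pi * Yc - 2) * ll +
        (Real.pi * e + 3 * e) * lx + Km := by
      rw [hKm]
      refine key_case (e := e) (t0 := t0) (A := A) (n := n) (l0 := l0) (N := N) hb hm he0 ht0
        hl0 hN hn hA hL hLx hlx hll hκ1 hκb hC1 hC2 hK10 hYc2 hs0
        (fun l hl h => (hend b hbs.le hbc.le l hl h).2) ?_
      intro J hJ
      have := hsum b hb hbc.le l0 hl0 J hJ
      rw [← hn, ← hK1] at this
      exact this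
    exact final_arith he hε hlx0 hKm0 hKs0 key

end Vale.Agent.P159.NC
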