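import Vale.Agent.P159.T1.NC.Props

/-!
NearCritical (P159, hand-in 4): the order of magnitude of the logarithm of the correlation length.
-/

namespace Vale.Agent.P159.NC

/-- The logarithm of the correlation length and the logarithm of the first scale at which the
stiffness is at most `2 / π - d`. -/
def OrderNC : Prop := ∀ d : ℝ, 0 < d → d < 2 / Real.pi → ∀ ε : ℝ, 0 < ε →
  ∃ δ : ℝ, 0 < δ ∧ ∀ b : ℝ, bCrit - δ < b → b < bCrit →
    ∃ Ld : ℕ, IsLeast {L : ℕ | 1 ≤ L ∧ stiff L b ≤ 2 / Real.pi - d} Ld ∧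
      Real.log Ld ≤ (1 + ε) * Real.log (corrLength b) ∧
      Real.log (corrLength b) ≤ (1 + (helicity bCrit - 2 / Real.pi) / d + ε) * Real.log Ld

end Vale.Agent.P159.NC
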