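import Vale.Agent.P159.T1.NC.Sharp
import Vale.Agent.P159.T1.NC.H831.StepU
import Vale.Agent.P159.T1.NC.H831.Rule
import Vale.Agent.P159.T1.NC.H731.EndQ
import Vale.Agent.P159.T1.NC.H731.EndU
import Vale.Agent.P159.T1.NC.H172.AffUAll
import Vale.Agent.P159.T1.NC.H664.GLow

/-!
NearCritical: the sum rule and the sharp inequality below the critical point.
-/

namespace Vale.Agent.P159.NC

open Vale.Agent.P159

theorem stepU : StepU :=
  UJ.H831.stepU_of (fun B t0 hB ht0 => UJ.H172.affU B t0 hB ht0) fun B hB => UJ.H664.gLowU B hB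

theorem sumRule : SumRule := T1.NC.H831.sumRule_of stepU

/-- high temperature -/
theorem small_b {b : ℝ} (hb : 0 < b) (h : b ≤ 1 / 96) : corrLength b ≤ 4 := by
  have h1 : XY.phi b 1 ≤ 1 / 2 := by
    have := H731.phi_le_sup hb (le_refl 1) zero_le_one fun u _ _ => XY.C_le_one b u
    push_cast at this
    linarith
  have h2 := H731.mass_ge_of_phi hb h1
  norm_num at h2
  unfold corrLength
  rw [div_le_iff₀ (by linarith)]
  linarith

theorem sharpNC : SharpNC :=
  sharp_of sumRule H731.endU (by norm_num : (0 : ℝ) < 1 / 96) fun b hb hbb => small_b hb hbb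

end Vale.Agent.P159.NC
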